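import Vale.Agent.H14.LT2.LogDeriv

/-!
P371, row G: the derivative of `L_l` and the trace inequality.
-/

open MeasureTheory Matrix Set Filter Topology
open scoped ENNReal ComplexOrder

namespace Vale.LT2.G14

open Vale.LT2

variable {N : ℕ}

theorem cfc_psd (B : Mat N) (hB : B.IsHermitian) (f : ℝ → ℝ)
    (hf : ∀ k, 0 ≤ f (hB.eigenvalues k)) : (cfc f B).PosSemidef := by
  have h1 : cfc f B = cfc (fun t => √(f t)) B * (cfc (fun t => √(f t)) B)ᴴ := by
    rw [(cherm B _).eq, cmul]
    apply ccongr B hB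
    intro k
    exact (Real.mul_self_sqrt (hf k)).symm
  rw [h1]
  exact Matrix.posSemidef_self_mul_conjTranspose _

theorem tr_mul_nonneg (W T : Mat N) (hT : T.PosSemidef) : 0 ≤ ((W * T * Wᴴ * T).trace).re := by
  set Q := cfc (fun t => √t) T with hQ
  have hQQ : Q * Qᴴ = T := by
    rw [hQ, (cherm T _).eq, cmul]
    rw [ccongr T hT.1 _ (fun t => t), cid T hT.1]
    intro k
    exact Real.mul_self_sqrt (hT.eigenvalues_nonneg k)
  have h1 : (W * T * Wᴴ * T).trace = ((Qᴴ * W * Q) * (Qᴴ * W * Q)ᴴ).trace := by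
    rw [← hQQ]
    simp only [Matrix.conjTranspose_mul, Matrix.conjTranspose_conjTranspose]
    have h2 : W * (Q * Qᴴ) * Wᴴ * (Q * Qᴴ) = (W * Q * (Qᴴ * Wᴴ * Q)) * Qᴴ := by
      simp only [Matrix.mul_assoc]
    rw [h2, Matrix.trace_mul_comm]
    congr 1
    simp only [Matrix.mul_assoc]
  rw [h1]
  have h3 := (Matrix.posSemidef_self_mul_conjTranspose (Qᴴ * W * Q)).trace_nonneg
  exact (Complex.le_def.1 h3).1

theorem tr_RSRT (R S T : Mat N) (hR : R.IsHermitian) (hS : S.IsHermitian) (hT : T.PosSemidef)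
    (hST : S * T = 1) (hTS : T * S = 1) :
    ((R * R).trace).re ≤ ((R * S * R * T).trace).re := by
  have h := tr_mul_nonneg (S * R - R * S) T hT
  have hW : (S * R - R * S)ᴴ = R * S - S * R := by
    rw [Matrix.conjTranspose_sub, Matrix.conjTranspose_mul, Matrix.conjTranspose_mul, hR.eq, hS.eq]
  rw [hW] at h
  have h1 : (S * R - R * S) * T * (R * S - S * R) * T
      = S * R * T * R * (S * T) - S * R * (T * S) * R * T - R * (S * T) * R * (S * T)
        + R * (S * T) * (S * R * T) := by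
    simp only [Matrix.mul_sub, Matrix.sub_mul, Matrix.mul_assoc]
    abel
  rw [h1, hST, hTS] at h
  simp only [Matrix.mul_one, Matrix.trace_add, Matrix.trace_sub] at h
  have e1 : (S * R * T * R).trace = (R * S * R * T).trace := by
    rw [Matrix.trace_mul_comm]
    congr 1
    simp only [Matrix.mul_assoc]
  have e2 : (S * R * R * T).trace = (R * R).trace := by
    rw [Matrix.trace_mul_comm, ← Matrix.mul_assoc, ← Matrix.mul_assoc, hTS, Matrix.one_mul]
  have e3 : (R * (S * R * T)).trace = (R * S * R * T).trace := by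
    congr 1
    simp only [Matrix.mul_assoc]
  rw [e1, e2, e3] at h
  simp only [Complex.add_re, Complex.sub_re] at h
  linarith

/-- the matrix `D log(B)[S]`. -/
noncomputable def Gm (B S : Mat N) : Mat N :=
  Matrix.of fun i j => ∫ s in Ioi (0 : ℝ), (Rs B s * S * Rs B s) i j

theorem integrable_entry (B S : Mat N) (ε : ℝ) (hε : 0 < ε) (hB : (B - (ε : ℂ) • 1).PosSemidef)
    (i j : Fin N) : IntegrableOn (fun s : ℝ => (Rs B s * S * Rs B s) i j) (Ioi 0) := by
  obtain ⟨c, hc0, hc⟩ := exists_entry_bound S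
  have hBp := posDef_of_ge _ ε hε hB
  have h1 := (int_sq ε (N * ((N * (N * c)) * N)) hε).1
  refine Integrable.mono' h1 ?_ ?_
  · apply Measurable.aestronglyMeasurable
    have h2 := measurable_Rs B hBp.1
    simp only [Matrix.mul_apply, Finset.sum_mul]
    refine Finset.measurable_sum _ fun k _ => Finset.measurable_sum _ fun m _ => ?_
    exact ((h2 _ _).mul_const _).mul (h2 _ _)
  · rw [ae_restrict_iff' measurableSet_Ioi]
    refine Eventually.of_forall fun s hs => ?_
    have hs' : (0 : ℝ) < s := hs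
    refine (mul_entry_bound _ _ _ _ (fun i j => mul_entry_bound _ _ _ _
      (Rs_bound B ε hε hB s hs'.le) hc i j) (Rs_bound B ε hε hB s hs'.le) i j).trans
      (le_of_eq ?_)
    ring

theorem tp_Gm (B S : Mat N) (ε : ℝ) (hε : 0 < ε) (hB : (B - (ε : ℂ) • 1).PosSemidef)
    (X : Mat N) : IntegrableOn (fun s : ℝ => tp (Rs B s * S * Rs B s) X) (Ioi 0) ∧
    tp (Gm B S) X = ∫ s in Ioi (0 : ℝ), tp (Rs B s * S * Rs B s) X := by
  have hi := integrable_entry B S ε hε hB
  have h1 : ∀ s : ℝ, tp (Rs B s * S * Rs B s) X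
      = (∑ i, ∑ j, (Rs B s * S * Rs B s) i j * X j i).re := by
    intro s
    unfold tp
    simp only [Matrix.trace, Matrix.diag_apply, Matrix.mul_apply (M := Rs B s * S * Rs B s)]
  have h3 : ∀ i ∈ (Finset.univ : Finset (Fin N)), ∀ j ∈ (Finset.univ : Finset (Fin N)),
      IntegrableOn (fun s : ℝ => (Rs B s * S * Rs B s) i j * X j i) (Ioi 0) :=
    fun i _ j _ => (hi i j).mul_const _
  have h2 : IntegrableOn (fun s : ℝ => ∑ i, ∑ j, (Rs B s * S * Rs B s) i j * X j i) (Ioi 0) :=
    integrable_finsetSum _ fun i hi' => integrable_finsetSum _ (h3 i hi')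
  constructor
  · simp_rw [h1]
    exact h2.re
  · simp_rw [h1]
    have h4 := integral_re (𝕜 := ℂ) h2
    simp only [RCLike.re_to_complex] at h4
    rw [h4]
    unfold tp
    congr 1
    rw [integral_finsetSum _ fun i hi' => integrable_finsetSum _ (h3 i hi')]
    simp only [Matrix.trace, Matrix.diag_apply, Matrix.mul_apply (M := Gm B S)]
    apply Finset.sum_congr rfl
    intro i hi'
    rw [integral_finsetSum _ (h3 i hi')]
    apply Finset.sum_congr rfl
    intro j _
    rw [integral_mul_const]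
    rfl

theorem main_ineq (B S T : Mat N) (ε : ℝ) (hε : 0 < ε) (hB : (B - (ε : ℂ) • 1).PosSemidef)
    (hS : S.IsHermitian) (hT : T.PosSemidef) (hST : S * T = 1) (hTS : T * S = 1) :
    tp (Gm B S) (((1 / 2 : ℝ) : ℂ) • (T * B + B * T) - B * B) ≤ N - tp B S := by
  have hBp := posDef_of_ge _ ε hε hB
  have hBh := hBp.1
  obtain ⟨hi, he⟩ := tp_Gm B S ε hε hB (((1 / 2 : ℝ) : ℂ) • (T * B + B * T) - B * B)
  rw [he]
  -- the upper bound function
  have hub : ∀ s ∈ Ioi (0 : ℝ), tp (Rs B s * S * Rs B s)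
      (((1 / 2 : ℝ) : ℂ) • (T * B + B * T) - B * B) ≤
      ∑ k, (hBh.eigenvalues k * wt B hBh 1 k * ((s + hBh.eigenvalues k)⁻¹) ^ 2
        - hBh.eigenvalues k ^ 2 * wt B hBh S k * ((s + hBh.eigenvalues k)⁻¹) ^ 2) := by
    intro s hs
    have hs' : (0 : ℝ) < s := hs
    have hR : (Rs B s).IsHermitian := cherm B _
    have hRB : Rs B s * B = 1 - (s : ℂ) • Rs B s := by
      have := Rs_mul B hBp s hs'.le
      rw [mul_add, Matrix.mul_smul, mul_one] at this
      rw [← this]; abel
    have hBR : B * Rs B s = 1 - (s : ℂ) • Rs B s := by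
      have := mul_Rs B hBp s hs'.le
      rw [add_mul, Matrix.smul_mul, one_mul] at this
      rw [← this]; abel
    have h1 : tp (Rs B s * S * Rs B s) (T * B)
        = ((Rs B s).trace).re - s * ((Rs B s * S * Rs B s * T).trace).re := by
      unfold tp
      have e1 : (Rs B s * S * Rs B s * (T * B)).trace
          = (B * Rs B s * (S * Rs B s * T)).trace := by
        rw [← Matrix.mul_assoc, Matrix.trace_mul_comm]
        congr 1
        simp only [Matrix.mul_assoc]
      rw [e1, hBR, sub_mul, Matrix.one_mul, Matrix.smul_mul, Matrix.trace_sub, Matrix.trace_smul]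
      have e2 : (S * Rs B s * T).trace = (Rs B s).trace := by
        rw [Matrix.trace_mul_comm, ← Matrix.mul_assoc, hTS, Matrix.one_mul]
      have e3 : Rs B s * (S * Rs B s * T) = Rs B s * S * Rs B s * T := by
        simp only [Matrix.mul_assoc]
      rw [e2, e3]
      simp
    have h2 : tp (Rs B s * S * Rs B s) (B * T)
        = ((Rs B s).trace).re - s * ((Rs B s * S * Rs B s * T).trace).re := by
      unfold tp
      have e1 : (Rs B s * S * Rs B s * (B * T))
          = Rs B s * S * (Rs B s * B) * T := by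
        simp only [Matrix.mul_assoc]
      rw [e1, hRB, Matrix.mul_sub, Matrix.mul_one, Matrix.mul_smul, Matrix.sub_mul,
        Matrix.smul_mul, Matrix.trace_sub, Matrix.trace_smul]
      have e2 : (Rs B s * S * T).trace = (Rs B s).trace := by
        rw [Matrix.mul_assoc, hST, Matrix.mul_one]
      rw [e2]
      simp
    have h3 : tp (Rs B s * S * Rs B s) (B * B)
        = tp (cfc (fun t : ℝ => t ^ 2 * ((s + t)⁻¹) ^ 2) B) S := by
      have e1 : cfc (fun t : ℝ => t ^ 2 * ((s + t)⁻¹) ^ 2) B = Rs B s * B * B * Rs B s := by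
        have e2 : cfc (fun t : ℝ => t) B = B := cid B hBh
        have e3 : cfc (fun t : ℝ => (s + t)⁻¹) B * cfc (fun t : ℝ => t) B
          * cfc (fun t : ℝ => t) B * cfc (fun t : ℝ => (s + t)⁻¹) B
            = cfc (fun t : ℝ => t ^ 2 * ((s + t)⁻¹) ^ 2) B := by
          rw [cmul, cmul, cmul]
          congr 1
          funext t
          ring
        rw [e2] at e3
        exact e3.symm
      rw [e1]
      unfold tp
      have e4 : Rs B s * S * Rs B s * (B * B) = (Rs B s * S) * (Rs B s * B * B) := by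
        simp only [Matrix.mul_assoc]
      rw [e4, Matrix.trace_mul_comm]
      congr 2
      simp only [Matrix.mul_assoc]
    have h4 := tr_RSRT (Rs B s) S T hR hS hT hST hTS
    rw [tp_sub_right, tp_smul_right, tp_add_right, h1, h2, h3]
    have h5 : ((Rs B s).trace).re - s * ((Rs B s * Rs B s).trace).re
        = ∑ k, hBh.eigenvalues k * wt B hBh 1 k * ((s + hBh.eigenvalues k)⁻¹) ^ 2 := by
      have e1 : ((Rs B s).trace).re - s * ((Rs B s * Rs B s).trace).re
          = tp (cfc (fun t : ℝ => (s + t)⁻¹ - s * ((s + t)⁻¹ * (s + t)⁻¹)) B) 1 := by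
        rw [← csub, tp_sub_left]
        have e2 : cfc (fun t : ℝ => s * ((s + t)⁻¹ * (s + t)⁻¹)) B
            = (s : ℂ) • (Rs B s * Rs B s) := by
          rw [← cmul B (fun _ => s), ← cmul, cconst B hBh, Matrix.smul_mul, Matrix.one_mul]
          rfl
        rw [e2, tp_smul_left]
        simp [tp, Rs]
      rw [e1, tp_cfc B hBh]
      apply Finset.sum_congr rfl
      intro k _
      have := hBp.eigenvalues_pos k
      field_simp
      ring
    have h6 : tp (cfc (fun t : ℝ => t ^ 2 * ((s + t)⁻¹) ^ 2) B) S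
        = ∑ k, hBh.eigenvalues k ^ 2 * wt B hBh S k * ((s + hBh.eigenvalues k)⁻¹) ^ 2 := by
      rw [tp_cfc B hBh]
      apply Finset.sum_congr rfl
      intro k _
      ring
    rw [Finset.sum_sub_distrib, ← h5, ← h6]
    nlinarith
  have hint : ∀ k ∈ (Finset.univ : Finset (Fin N)), IntegrableOn (fun s : ℝ =>
      hBh.eigenvalues k * wt B hBh 1 k * ((s + hBh.eigenvalues k)⁻¹) ^ 2
        - hBh.eigenvalues k ^ 2 * wt B hBh S k * ((s + hBh.eigenvalues k)⁻¹) ^ 2) (Ioi 0) :=
    fun k _ => (int_sq _ _ (hBp.eigenvalues_pos k)).1.sub (int_sq _ _ (hBp.eigenvalues_pos k)).1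
  refine (setIntegral_mono_on hi (integrable_finsetSum _ hint) measurableSet_Ioi hub).trans
    (le_of_eq ?_)
  rw [integral_finsetSum _ hint]
  have h7 : ∀ k ∈ (Finset.univ : Finset (Fin N)), (∫ s in Ioi (0 : ℝ),
      (hBh.eigenvalues k * wt B hBh 1 k * ((s + hBh.eigenvalues k)⁻¹) ^ 2
        - hBh.eigenvalues k ^ 2 * wt B hBh S k * ((s + hBh.eigenvalues k)⁻¹) ^ 2))
      = wt B hBh 1 k - hBh.eigenvalues k * wt B hBh S k := by
    intro k _
    have hk := hBp.eigenvalues_pos k
    rw [integral_sub (int_sq _ _ hk).1 (int_sq _ _ hk).1, (int_sq _ _ hk).2, (int_sq _ _ hk).2]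
    field_simp
  rw [Finset.sum_congr rfl h7, Finset.sum_sub_distrib]
  have h8 : tp B S = ∑ k, hBh.eigenvalues k * wt B hBh S k := by
    have := tp_cfc B hBh (fun t => t) S
    rwa [cid B hBh] at this
  rw [h8, ← tp_one B hBh]
  congr 1
  simp [tp]

end Vale.LT2.G14
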