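import Vale.Agent.H14.LT2.Tools

/-!
P371, row G: integral representation and derivative of the matrix logarithm.
-/

open MeasureTheory Matrix Set Filter Topology
open scoped ENNReal ComplexOrder

namespace Vale.LT2.G14

open Vale.LT2

variable {N : ℕ}

/-! ### scalar integrals -/

theorem tendsto_log_diff (b : ℝ) (hb : 0 < b) :
    Tendsto (fun s : ℝ => Real.log (s + 1) - Real.log (s + b)) atTop (𝓝 0) := by
  have h1 : Tendsto (fun s : ℝ => (s + 1) / (s + b)) atTop (𝓝 1) := by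
    have h2 : Tendsto (fun s : ℝ => 1 + (1 - b) * (s + b)⁻¹) atTop (𝓝 (1 + (1 - b) * 0)) := by
      apply Tendsto.const_add
      apply Tendsto.const_mul
      exact tendsto_inv_atTop_zero.comp (tendsto_atTop_add_const_right _ b tendsto_id)
    rw [mul_zero, add_zero] at h2
    refine h2.congr' ?_
    filter_upwards [eventually_gt_atTop 0] with s hs
    field_simp
    ring
  have h2 := (Real.continuousAt_log (one_ne_zero)).tendsto.comp h1
  rw [Real.log_one] at h2
  refine h2.congr' ?_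
  filter_upwards [eventually_gt_atTop 0] with s hs
  simp only [Function.comp_apply]
  rw [Real.log_div (by positivity) (by positivity)]

theorem int_log (b : ℝ) (hb : 0 < b) :
    IntegrableOn (fun s : ℝ => (s + 1)⁻¹ - (s + b)⁻¹) (Ioi 0) ∧
    ∫ s in Ioi (0 : ℝ), ((s + 1)⁻¹ - (s + b)⁻¹) = Real.log b := by
  have hd : ∀ s ∈ Ioi (0 : ℝ), HasDerivAt (fun s : ℝ => Real.log (s + 1) - Real.log (s + b))
      ((s + 1)⁻¹ - (s + b)⁻¹) s := by
    intro s hs
    have hs' : (0 : ℝ) < s := hs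
    have h1 : HasDerivAt (fun s : ℝ => Real.log (s + 1)) (s + 1)⁻¹ s := by
      have := ((hasDerivAt_id' s).add_const 1).log (by positivity)
      simpa using this
    have h2 : HasDerivAt (fun s : ℝ => Real.log (s + b)) (s + b)⁻¹ s := by
      have := ((hasDerivAt_id' s).add_const b).log (by positivity)
      simpa using this
    exact h1.sub h2
  have hc : ContinuousWithinAt (fun s : ℝ => Real.log (s + 1) - Real.log (s + b)) (Ici 0) 0 := by
    apply ContinuousAt.continuousWithinAt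
    have h1 : ContinuousAt (fun s : ℝ => Real.log (s + 1)) 0 :=
      ContinuousAt.log (by fun_prop) (by simp)
    have h2 : ContinuousAt (fun s : ℝ => Real.log (s + b)) 0 :=
      ContinuousAt.log (by fun_prop) (by simpa using hb.ne')
    exact h1.sub h2
  have ht := tendsto_log_diff b hb
  rcases le_total 1 b with h | h
  · have hn : ∀ s ∈ Ioi (0 : ℝ), 0 ≤ (s + 1)⁻¹ - (s + b)⁻¹ := by
      intro s hs
      have hs' : (0 : ℝ) < s := hs
      rw [sub_nonneg]
      gcongr
    refine ⟨integrableOn_Ioi_deriv_of_nonneg hc hd hn ht, ?_⟩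
    rw [integral_Ioi_of_hasDerivAt_of_nonneg hc hd hn ht]
    simp
  · have hn : ∀ s ∈ Ioi (0 : ℝ), (s + 1)⁻¹ - (s + b)⁻¹ ≤ 0 := by
      intro s hs
      have hs' : (0 : ℝ) < s := hs
      rw [sub_nonpos]
      gcongr
    refine ⟨integrableOn_Ioi_deriv_of_nonpos hc hd hn ht, ?_⟩
    rw [integral_Ioi_of_hasDerivAt_of_nonpos hc hd hn ht]
    simp

theorem int_sq (b c : ℝ) (hb : 0 < b) :
    IntegrableOn (fun s : ℝ => c * ((s + b)⁻¹) ^ 2) (Ioi 0) ∧
    ∫ s in Ioi (0 : ℝ), c * ((s + b)⁻¹) ^ 2 = c / b := by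
  have hd : ∀ s ∈ Ioi (0 : ℝ), HasDerivAt (fun s : ℝ => -(s + b)⁻¹) (((s + b)⁻¹) ^ 2) s := by
    intro s hs
    have hs' : (0 : ℝ) < s := hs
    have h1 := ((hasDerivAt_id' s).add_const b).inv (by positivity)
    have h2 := h1.neg
    have h3 : -(-1 / (s + b) ^ 2) = ((s + b)⁻¹) ^ 2 := by
      rw [neg_div, neg_neg, inv_pow, one_div]
    rw [h3] at h2
    exact h2
  have hc : ContinuousWithinAt (fun s : ℝ => -(s + b)⁻¹) (Ici 0) 0 := by
    apply ContinuousAt.continuousWithinAt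
    apply ContinuousAt.neg
    apply ContinuousAt.inv₀ (by fun_prop)
    simpa using hb.ne'
  have ht : Tendsto (fun s : ℝ => -(s + b)⁻¹) atTop (𝓝 0) := by
    have := (tendsto_inv_atTop_zero.comp (tendsto_atTop_add_const_right _ b tendsto_id)).neg
      (G := ℝ)
    simpa using this
  have hn : ∀ s ∈ Ioi (0 : ℝ), 0 ≤ ((s + b)⁻¹) ^ 2 := fun s _ => by positivity
  refine ⟨(integrableOn_Ioi_deriv_of_nonneg hc hd hn ht).const_mul c, ?_⟩
  rw [integral_const_mul, integral_Ioi_of_hasDerivAt_of_nonneg hc hd hn ht]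
  simp
  rfl

theorem tp_one (B : Mat N) (hB : B.IsHermitian) (X : Mat N) :
    tp 1 X = ∑ k, wt B hB X k := by
  have h := tp_cfc B hB (fun _ => 1) X
  rw [cconst B hB] at h
  simpa using h

/-- integral representation of the logarithm. -/
theorem log_rep (B : Mat N) (hB : B.PosDef) (X : Mat N) :
    IntegrableOn (fun s : ℝ => (s + 1)⁻¹ * tp 1 X - tp (Rs B s) X) (Ioi 0) ∧
    ∫ s in Ioi (0 : ℝ), ((s + 1)⁻¹ * tp 1 X - tp (Rs B s) X) = tp (cfc Real.log B) X := by
  have h1 : (fun s : ℝ => (s + 1)⁻¹ * tp 1 X - tp (Rs B s) X) = fun s : ℝ =>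
      ∑ k, ((s + 1)⁻¹ - (s + hB.1.eigenvalues k)⁻¹) * wt B hB.1 X k := by
    funext s
    rw [tp_one B hB.1, Rs, tp_cfc B hB.1, Finset.mul_sum, ← Finset.sum_sub_distrib]
    apply Finset.sum_congr rfl
    intro k _
    ring
  rw [h1]
  have h2 : ∀ k ∈ (Finset.univ : Finset (Fin N)), IntegrableOn
      (fun s : ℝ => ((s + 1)⁻¹ - (s + hB.1.eigenvalues k)⁻¹) * wt B hB.1 X k) (Ioi 0) :=
    fun k _ => (int_log _ (hB.eigenvalues_pos k)).1.mul_const _
  refine ⟨integrable_finsetSum _ h2, ?_⟩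
  rw [integral_finsetSum _ h2, tp_cfc B hB.1]
  apply Finset.sum_congr rfl
  intro k _
  rw [integral_mul_const, (int_log _ (hB.eigenvalues_pos k)).2]

/-- difference of logarithms. -/
theorem log_sub (B C : Mat N) (hB : B.PosDef) (hC : C.PosDef) (X : Mat N) :
    tp (cfc Real.log B) X - tp (cfc Real.log C) X
      = ∫ s in Ioi (0 : ℝ), tp (Rs C s * (B - C) * Rs B s) X := by
  have h1 := log_rep B hB X
  have h2 := log_rep C hC X
  rw [← h1.2, ← h2.2, ← integral_sub h1.1 h2.1]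
  apply setIntegral_congr_fun measurableSet_Ioi
  intro s hs
  have hs' : (0 : ℝ) < s := hs
  simp only
  rw [← Rs_sub B C hB hC s hs'.le, tp_sub_left]
  ring

theorem measurable_Rs (B : Mat N) (hB : B.IsHermitian) (i j : Fin N) :
    Measurable (fun s : ℝ => Rs B s i j) := by
  have : (fun s : ℝ => Rs B s i j) = fun s : ℝ => ∑ k, (((s + hB.eigenvalues k)⁻¹ : ℝ) : ℂ) *
      ((hB.eigenvectorUnitary : Mat N) i k * star ((hB.eigenvectorUnitary : Mat N) j k)) := by
    funext s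
    exact cfc_entry B hB _ i j
  rw [this]
  apply Finset.measurable_sum
  intro k _
  apply Measurable.mul_const
  apply Complex.measurable_ofReal.comp
  fun_prop

theorem measurable_tp (B C H X : Mat N) (hB : B.IsHermitian) (hC : C.IsHermitian) :
    Measurable (fun s : ℝ => tp (Rs B s * H * Rs C s) X) := by
  have h1 := measurable_Rs B hB
  have h2 := measurable_Rs C hC
  unfold tp
  simp only [Matrix.trace, Matrix.diag_apply, Matrix.mul_apply, Finset.sum_mul]
  apply Complex.measurable_re.comp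
  refine Finset.measurable_sum _ fun i _ => Finset.measurable_sum _ fun j _ =>
    Finset.measurable_sum _ fun k _ => Finset.measurable_sum _ fun m _ => ?_
  exact (((h1 _ _).mul_const _).mul (h2 _ _)).mul_const _

theorem tp_bound3 (R H R' X : Mat N) (r c r' x : ℝ) (hr : ∀ i j, ‖R i j‖ ≤ r)
    (hH : ∀ i j, ‖H i j‖ ≤ c) (hr' : ∀ i j, ‖R' i j‖ ≤ r') (hx : ∀ i j, ‖X i j‖ ≤ x) :
    |tp (R * H * R') X| ≤ N * (N * ((N * ((N * (r * c)) * r')) * x)) :=
  tp_bound _ _ _ _ (fun i j => mul_entry_bound _ _ _ _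
    (fun i j => mul_entry_bound _ _ _ _ hr hH i j) hr' i j) hx

theorem tendsto_mat_iff {ι : Type*} (F : ι → Mat N) (f : Filter ι) (A : Mat N) :
    Tendsto F f (𝓝 A) ↔ ∀ i j, Tendsto (fun y => F y i j) f (𝓝 (A i j)) := by
  constructor
  · intro h i j
    exact tendsto_pi_nhds.1 (tendsto_pi_nhds.1 h i) j
  · intro h
    exact tendsto_pi_nhds.2 fun i => tendsto_pi_nhds.2 fun j => h i j

/-- continuity of the resolvent. -/
theorem tendsto_Rs {ι : Type*} (f : Filter ι) (B : ι → Mat N) (C : Mat N) (ε : ℝ) (hε : 0 < ε)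
    (hB : ∀ᶠ y in f, (B y - (ε : ℂ) • 1).PosSemidef) (hC : (C - (ε : ℂ) • 1).PosSemidef)
    (ht : Tendsto B f (𝓝 C)) (s : ℝ) (hs : 0 ≤ s) :
    Tendsto (fun y => Rs (B y) s) f (𝓝 (Rs C s)) := by
  rw [tendsto_mat_iff]
  intro i j
  rw [tendsto_iff_norm_sub_tendsto_zero]
  have h1 : Tendsto (fun y => ∑ i, ∑ j, ‖(B y - C) i j‖) f (𝓝 0) := by
    have : (0 : ℝ) = ∑ _i : Fin N, ∑ _j : Fin N, 0 := by simp
    rw [this]
    refine tendsto_finsetSum _ fun i _ => tendsto_finsetSum _ fun j _ => ?_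
    have := (tendsto_mat_iff B f C).1 ht i j
    exact tendsto_iff_norm_sub_tendsto_zero.1 this
  have h2 : Tendsto (fun y => (N : ℝ) * ((N * ((N * (s + ε)⁻¹) * (∑ i, ∑ j, ‖(B y - C) i j‖)))
      * (N * (s + ε)⁻¹))) f (𝓝 (N * ((N * ((N * (s + ε)⁻¹) * 0)) * (N * (s + ε)⁻¹)))) := by
    exact (((h1.const_mul _).const_mul _).mul_const _).const_mul _
  simp only [mul_zero, zero_mul] at h2
  refine squeeze_zero' (Eventually.of_forall fun _ => norm_nonneg _) ?_ h2
  filter_upwards [hB] with y hy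
  have h3 := Rs_sub (B y) C (posDef_of_ge _ ε hε hy) (posDef_of_ge _ ε hε hC) s hs
  have h4 : Rs (B y) s i j - Rs C s i j = -((Rs C s * (B y - C) * Rs (B y) s) i j) := by
    rw [← h3, Matrix.sub_apply]; ring
  rw [h4, norm_neg]
  refine mul_entry_bound _ _ _ _ (fun i j => mul_entry_bound _ _ _ _
    (Rs_bound C ε hε hC s hs) ?_ i j) (Rs_bound _ ε hε hy s hs) i j
  intro i j
  calc ‖(B y - C) i j‖ ≤ ∑ j, ‖(B y - C) i j‖ :=
        Finset.single_le_sum (f := fun j => ‖(B y - C) i j‖) (fun _ _ => norm_nonneg _)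
          (Finset.mem_univ j)
    _ ≤ _ := Finset.single_le_sum (f := fun i => ∑ j, ‖(B y - C) i j‖)
        (fun _ _ => Finset.sum_nonneg fun _ _ => norm_nonneg _) (Finset.mem_univ i)

/-- derivative of the logarithm along a path. -/
theorem hasDerivAt_log (B : ℝ → Mat N) (B' : Mat N) (l ε : ℝ) (hε : 0 < ε)
    (hB : ∀ᶠ y in 𝓝 l, (B y - (ε : ℂ) • 1).PosSemidef)
    (hd : ∀ i j, HasDerivAt (fun y => B y i j) (B' i j) l) (X : Mat N) :
    HasDerivAt (fun y => tp (cfc Real.log (B y)) X)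
      (∫ s in Ioi (0 : ℝ), tp (Rs (B l) s * B' * Rs (B l) s) X) l := by
  have hBl : (B l - (ε : ℂ) • 1).PosSemidef := hB.self_of_nhds
  have hBlp := posDef_of_ge _ ε hε hBl
  rw [hasDerivAt_iff_tendsto_slope]
  -- difference quotients of the path
  have hslope : Tendsto (fun y => (((y - l)⁻¹ : ℝ) : ℂ) • (B y - B l)) (𝓝[≠] l) (𝓝 B') := by
    rw [tendsto_mat_iff]
    intro i j
    have := hasDerivAt_iff_tendsto_slope.1 (hd i j)
    refine this.congr fun y => ?_
    simp [slope_def_module, Matrix.smul_apply]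
  have hBc : Tendsto B (𝓝[≠] l) (𝓝 (B l)) := by
    rw [tendsto_mat_iff]
    intro i j
    exact (hd i j).continuousAt.tendsto.mono_left nhdsWithin_le_nhds
  have hB2 : ∀ᶠ y in 𝓝[≠] l, (B y - (ε : ℂ) • 1).PosSemidef := hB.filter_mono nhdsWithin_le_nhds
  obtain ⟨x, hx0, hx⟩ := exists_entry_bound X
  obtain ⟨c, hc0, hc⟩ := exists_entry_bound B'
  have hbd : ∀ᶠ y in 𝓝[≠] l, ∀ i j, ‖((((y - l)⁻¹ : ℝ) : ℂ) • (B y - B l)) i j‖ ≤ c + 1 := by
    rw [eventually_all]
    intro i
    rw [eventually_all]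
    intro j
    have h1 := ((tendsto_mat_iff _ _ _).1 hslope i j).norm
    have h2 : ‖B' i j‖ < c + 1 := by linarith [hc i j]
    exact (h1.eventually (gt_mem_nhds h2)).mono fun y hy => le_of_lt hy
  have heq : ∀ᶠ y in 𝓝[≠] l, slope (fun y => tp (cfc Real.log (B y)) X) l y =
      ∫ s in Ioi (0 : ℝ), tp (Rs (B l) s * ((((y - l)⁻¹ : ℝ) : ℂ) • (B y - B l)) * Rs (B y) s) X := by
    filter_upwards [hB2] with y hy
    rw [slope_def_module, smul_eq_mul, log_sub (B y) (B l) (posDef_of_ge _ ε hε hy) hBlp,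
      ← integral_const_mul]
    congr 1
    funext s
    rw [Matrix.mul_smul, Matrix.smul_mul, tp_smul_left]
  refine Tendsto.congr' (heq.mono fun y hy => hy.symm) ?_
  apply tendsto_integral_filter_of_dominated_convergence
    (fun s => (N * (N * ((N * ((N * (N * (c + 1))) * N)) * x))) * ((s + ε)⁻¹) ^ 2)
  · filter_upwards [hB2] with y hy
    exact (measurable_tp _ _ _ _ hBlp.1 (posDef_of_ge _ ε hε hy).1).aestronglyMeasurable
  · filter_upwards [hB2, hbd] with y hy hy2
    rw [ae_restrict_iff' measurableSet_Ioi]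
    refine Eventually.of_forall fun s hs => ?_
    have hs' : (0 : ℝ) < s := hs
    rw [Real.norm_eq_abs]
    refine (tp_bound3 _ _ _ _ _ _ _ _ (Rs_bound _ ε hε hBl s hs'.le) hy2
      (Rs_bound _ ε hε hy s hs'.le) hx).trans (le_of_eq ?_)
    ring
  · exact (int_sq ε _ hε).1
  · rw [ae_restrict_iff' measurableSet_Ioi]
    refine Eventually.of_forall fun s hs => ?_
    have hs' : (0 : ℝ) < s := hs
    have h1 := tendsto_Rs (𝓝[≠] l) B (B l) ε hε hB2 hBl hBc s hs'.le
    have h2 : Tendsto (fun y => Rs (B l) s * ((((y - l)⁻¹ : ℝ) : ℂ) • (B y - B l)) * Rs (B y) s * X)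
        (𝓝[≠] l) (𝓝 (Rs (B l) s * B' * Rs (B l) s * X)) :=
      (((hslope.const_mul _).mul h1).mul_const _)
    have h3 : Continuous (fun A : Mat N => (A.trace).re) :=
      Complex.continuous_re.comp (Continuous.matrix_trace continuous_id)
    exact (h3.tendsto _).comp h2

end Vale.LT2.G14
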