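import Vale.Agent.H1.LT2.Defs

/-!
P371, row G: tools on the functional calculus of Hermitian matrices.
-/

open MeasureTheory Matrix Set
open scoped ENNReal ComplexOrder

namespace Vale.LT2.G14

open Vale.LT2

variable {N : ℕ}

theorem contOn (B : Mat N) (f : ℝ → ℝ) : ContinuousOn f (spectrum ℝ B) := by
  have : (spectrum ℝ B).Finite := Matrix.finite_real_spectrum
  exact this.continuousOn f

theorem cmul (B : Mat N) (f g : ℝ → ℝ) :
    cfc f B * cfc g B = cfc (fun t => f t * g t) B :=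
  (cfc_mul f g B (contOn B f) (contOn B g)).symm

theorem cadd (B : Mat N) (f g : ℝ → ℝ) :
    cfc f B + cfc g B = cfc (fun t => f t + g t) B :=
  (cfc_add B f g (contOn B f) (contOn B g)).symm

theorem csub (B : Mat N) (f g : ℝ → ℝ) :
    cfc f B - cfc g B = cfc (fun t => f t - g t) B :=
  (cfc_sub f g B (contOn B f) (contOn B g)).symm

theorem ccongr (B : Mat N) (hB : B.IsHermitian) (f g : ℝ → ℝ)
    (h : ∀ k, f (hB.eigenvalues k) = g (hB.eigenvalues k)) : cfc f B = cfc g B := by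
  apply cfc_congr
  intro x hx
  rw [hB.spectrum_real_eq_range_eigenvalues] at hx
  obtain ⟨k, rfl⟩ := hx
  exact h k

theorem cconst (B : Mat N) (hB : B.IsHermitian) (r : ℝ) :
    cfc (fun _ : ℝ => r) B = (r : ℂ) • (1 : Mat N) := by
  rw [cfc_const r B hB.isSelfAdjoint]
  rw [Algebra.algebraMap_eq_smul_one]
  ext i j
  simp [Matrix.smul_apply]

theorem cid (B : Mat N) (hB : B.IsHermitian) :
    cfc (fun t : ℝ => t) B = B := cfc_id' ℝ B hB.isSelfAdjoint

theorem cherm (B : Mat N) (f : ℝ → ℝ) : (cfc f B).IsHermitian :=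
  cfc_predicate f B

/-- weights -/
noncomputable def wt (B : Mat N) (hB : B.IsHermitian) (X : Mat N) (k : Fin N) : ℝ :=
  (((star (hB.eigenvectorUnitary : Mat N)) * X * (hB.eigenvectorUnitary : Mat N)) k k).re

theorem tp_cfc (B : Mat N) (hB : B.IsHermitian) (f : ℝ → ℝ) (X : Mat N) :
    tp (cfc f B) X = ∑ k, f (hB.eigenvalues k) * wt B hB X k := by
  rw [hB.cfc_eq, IsHermitian.cfc, Unitary.conjStarAlgAut_apply]
  unfold tp wt
  rw [Matrix.mul_assoc, Matrix.mul_assoc, Matrix.trace_mul_comm, Matrix.mul_assoc, Matrix.trace]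
  simp only [Matrix.diag_apply, Matrix.diagonal_mul, Function.comp_apply]
  rw [Complex.re_sum]
  apply Finset.sum_congr rfl
  intro k _
  simp

theorem cfc_entry (B : Mat N) (hB : B.IsHermitian) (f : ℝ → ℝ) (i j : Fin N) :
    (cfc f B) i j = ∑ k, (f (hB.eigenvalues k) : ℂ) *
      ((hB.eigenvectorUnitary : Mat N) i k * star ((hB.eigenvectorUnitary : Mat N) j k)) := by
  rw [hB.cfc_eq, IsHermitian.cfc, Unitary.conjStarAlgAut_apply]
  rw [Matrix.mul_apply]
  apply Finset.sum_congr rfl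
  intro k _
  rw [Matrix.mul_diagonal]
  simp only [Function.comp_apply, Complex.coe_algebraMap, Matrix.star_apply]
  change _ * ((f (hB.eigenvalues k) : ℝ) : ℂ) * _ = _
  ring

theorem cfc_entry_bound (B : Mat N) (hB : B.IsHermitian) (f : ℝ → ℝ) (r : ℝ)
    (h : ∀ k, |f (hB.eigenvalues k)| ≤ r) (i j : Fin N) :
    ‖(cfc f B) i j‖ ≤ N * r := by
  rw [cfc_entry B hB]
  refine (norm_sum_le _ _).trans ?_
  have h1 : ∀ k ∈ (Finset.univ : Finset (Fin N)), ‖(f (hB.eigenvalues k) : ℂ) *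
      ((hB.eigenvectorUnitary : Mat N) i k * star ((hB.eigenvectorUnitary : Mat N) j k))‖ ≤ r := by
    intro k _
    rw [norm_mul, norm_mul, norm_star, Complex.norm_real, Real.norm_eq_abs]
    have h1 := entry_norm_bound_of_unitary hB.eigenvectorUnitary.2 i k
    have h2 := entry_norm_bound_of_unitary hB.eigenvectorUnitary.2 j k
    have h3 : ‖(hB.eigenvectorUnitary : Mat N) i k‖ * ‖(hB.eigenvectorUnitary : Mat N) j k‖ ≤ 1 :=
      mul_le_one₀ h1 (norm_nonneg _) h2
    calc _ ≤ |f (hB.eigenvalues k)| * 1 := mul_le_mul_of_nonneg_left h3 (abs_nonneg _)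
      _ ≤ r := by rw [mul_one]; exact h k
  refine (Finset.sum_le_sum h1).trans ?_
  simp

theorem mul_entry_bound (A B : Mat N) (a b : ℝ) (ha : ∀ i j, ‖A i j‖ ≤ a)
    (hb : ∀ i j, ‖B i j‖ ≤ b) (i j : Fin N) : ‖(A * B) i j‖ ≤ N * (a * b) := by
  rw [Matrix.mul_apply]
  refine (norm_sum_le _ _).trans ?_
  have h1 : ∀ k ∈ (Finset.univ : Finset (Fin N)), ‖A i k * B k j‖ ≤ a * b := by
    intro k _
    rw [norm_mul]
    exact mul_le_mul (ha i k) (hb k j) (norm_nonneg _) ((norm_nonneg _).trans (ha i k))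
  refine (Finset.sum_le_sum h1).trans ?_
  simp

theorem tp_bound (A X : Mat N) (a x : ℝ) (ha : ∀ i j, ‖A i j‖ ≤ a)
    (hx : ∀ i j, ‖X i j‖ ≤ x) : |tp A X| ≤ N * (N * (a * x)) := by
  unfold tp
  refine (Complex.abs_re_le_norm _).trans ?_
  rw [Matrix.trace]
  refine (norm_sum_le _ _).trans ?_
  refine (Finset.sum_le_sum (fun k _ => mul_entry_bound A X a x ha hx k k)).trans ?_
  simp

theorem exists_entry_bound (X : Mat N) : ∃ x : ℝ, 0 ≤ x ∧ ∀ i j, ‖X i j‖ ≤ x := by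
  refine ⟨∑ i, ∑ j, ‖X i j‖, by positivity, fun i j => ?_⟩
  calc ‖X i j‖ ≤ ∑ j, ‖X i j‖ :=
        Finset.single_le_sum (f := fun j => ‖X i j‖) (fun _ _ => norm_nonneg _) (Finset.mem_univ j)
    _ ≤ _ := Finset.single_le_sum (f := fun i => ∑ j, ‖X i j‖)
        (fun _ _ => Finset.sum_nonneg fun _ _ => norm_nonneg _) (Finset.mem_univ i)

/-! ### tp is bilinear -/

theorem tp_add_left (A B X : Mat N) : tp (A + B) X = tp A X + tp B X := by
  simp [tp, add_mul]

theorem tp_sub_left (A B X : Mat N) : tp (A - B) X = tp A X - tp B X := by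
  simp [tp, sub_mul]

theorem tp_add_right (A X Y : Mat N) : tp A (X + Y) = tp A X + tp A Y := by
  simp [tp, mul_add]

theorem tp_sub_right (A X Y : Mat N) : tp A (X - Y) = tp A X - tp A Y := by
  simp [tp, mul_sub]

theorem tp_smul_left (r : ℝ) (A X : Mat N) : tp ((r : ℂ) • A) X = r * tp A X := by
  simp [tp]

theorem tp_smul_right (r : ℝ) (A X : Mat N) : tp A ((r : ℂ) • X) = r * tp A X := by
  simp [tp]

theorem tp_comm (A X : Mat N) : tp A X = tp X A := by
  simp [tp, Matrix.trace_mul_comm A X]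

/-! ### resolvents -/

/-- resolvent -/
noncomputable def Rs (B : Mat N) (s : ℝ) : Mat N := cfc (fun t : ℝ => (s + t)⁻¹) B

theorem smul_one_add (B : Mat N) (hB : B.IsHermitian) (s : ℝ) :
    (s : ℂ) • (1 : Mat N) + B = cfc (fun t : ℝ => s + t) B := by
  rw [← cadd, cconst B hB, cid B hB]

theorem Rs_mul (B : Mat N) (hB : B.PosDef) (s : ℝ) (hs : 0 ≤ s) :
    Rs B s * ((s : ℂ) • 1 + B) = 1 := by
  rw [smul_one_add B hB.1, Rs, cmul]
  rw [ccongr B hB.1 _ (fun _ => 1), cconst B hB.1]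
  · simp
  · intro k
    have := hB.eigenvalues_pos k
    exact inv_mul_cancel₀ (by positivity)

theorem mul_Rs (B : Mat N) (hB : B.PosDef) (s : ℝ) (hs : 0 ≤ s) :
    ((s : ℂ) • 1 + B) * Rs B s = 1 := by
  rw [smul_one_add B hB.1, Rs, cmul]
  rw [ccongr B hB.1 _ (fun _ => 1), cconst B hB.1]
  · simp
  · intro k
    have := hB.eigenvalues_pos k
    exact mul_inv_cancel₀ (by positivity)

theorem Rs_sub (B C : Mat N) (hB : B.PosDef) (hC : C.PosDef) (s : ℝ) (hs : 0 ≤ s) :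
    Rs C s - Rs B s = Rs C s * (B - C) * Rs B s := by
  have h1 : B - C = ((s : ℂ) • 1 + B) - ((s : ℂ) • 1 + C) := by abel
  rw [h1, mul_sub, Rs_mul C hC s hs, sub_mul, mul_assoc, mul_Rs B hB s hs]
  simp

theorem eig_ge (B : Mat N) (ε : ℝ) (hB : B.IsHermitian) (h : (B - (ε : ℂ) • 1).PosSemidef)
    (k : Fin N) : ε ≤ hB.eigenvalues k := by
  have h1 := hB.eigenvalues_eq k
  have h2 := h.re_dotProduct_nonneg (hB.eigenvectorBasis k).ofLp
  rw [Matrix.sub_mulVec, dotProduct_sub, map_sub, ← h1] at h2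
  have h3 : RCLike.re (star (hB.eigenvectorBasis k).ofLp ⬝ᵥ ((ε : ℂ) • (1 : Mat N)) *ᵥ
      (hB.eigenvectorBasis k).ofLp) = ε := by
    rw [Matrix.smul_mulVec, Matrix.one_mulVec, dotProduct_smul]
    have h4 : star (hB.eigenvectorBasis k).ofLp ⬝ᵥ (hB.eigenvectorBasis k).ofLp = (1 : ℂ) := by
      have h5 := hB.eigenvectorBasis.orthonormal.1 k
      have h6 : inner ℂ (hB.eigenvectorBasis k) (hB.eigenvectorBasis k) = (1 : ℂ) := by
        rw [inner_self_eq_norm_sq_to_K, h5]; simp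
      rw [EuclideanSpace.inner_eq_star_dotProduct] at h6
      rw [dotProduct_comm]
      exact h6
    rw [h4]
    simp
  rw [h3] at h2
  linarith

theorem posDef_of_ge (B : Mat N) (ε : ℝ) (hε : 0 < ε) (h : (B - (ε : ℂ) • 1).PosSemidef) :
    B.PosDef := by
  have h1 : B = (B - (ε : ℂ) • 1) + (ε : ℂ) • 1 := by abel
  rw [h1]
  apply Matrix.PosDef.posSemidef_add h
  exact Matrix.PosDef.one.smul (by exact_mod_cast hε)

theorem Rs_bound (B : Mat N) (ε : ℝ) (hε : 0 < ε) (h : (B - (ε : ℂ) • 1).PosSemidef) (s : ℝ)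
    (hs : 0 ≤ s) (i j : Fin N) : ‖Rs B s i j‖ ≤ N * (s + ε)⁻¹ := by
  have hB := posDef_of_ge B ε hε h
  apply cfc_entry_bound B hB.1
  intro k
  have := eig_ge B ε hB.1 h k
  rw [abs_of_nonneg (by have : 0 ≤ s + hB.1.eigenvalues k := by linarith
                        positivity)]
  gcongr

end Vale.LT2.G14
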